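import Vale.Agent.P358.AD.L0

/-!
Scaled and flipped forms of the key entropy inequality at `ν = 0`.
-/

namespace Vale.Agent.P358.GX
open Matrix
open scoped ComplexOrder

variable {Y : Type*} [Fintype Y] [DecidableEq Y]

/-- `St (c • A) - η (c tr A) = c (St A - η (tr A))`. -/
theorem St_smul_sub (A : Matrix Y Y ℂ) (hA : A.PosSemidef) (c : ℝ) (hc : 0 ≤ c) :
    St ((c : ℂ) • A) - Real.negMulLog (c * A.trace.re) =
      c * (St A - Real.negMulLog A.trace.re) := by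
  rw [St_smul A hA c hc, Real.negMulLog_mul]
  ring

/-- scaled form of `L0u`, together with positivity of the output. -/
theorem L0_scaled_aux (k0 k1 b : ℝ) (hk1 : 0 ≤ k1) (hb : 0 ≤ b) (P B Q : Matrix Y Y ℂ)
    (hw : (fromBlocks P B Bᴴ Q).PosSemidef) :
    (fromBlocks (((k0 ^ 2 : ℝ) : ℂ) • P + ((b : ℝ) : ℂ) • Q) (((k0 * k1 : ℝ) : ℂ) • B)
        (((k0 * k1 : ℝ) : ℂ) • Bᴴ) (((k1 ^ 2 : ℝ) : ℂ) • Q)).PosSemidef ∧
    k0 ^ 2 * (St P - Real.negMulLog P.trace.re) + (b + k1 ^ 2) * (St Q - Real.negMulLog Q.trace.re)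
      + (Real.negMulLog (lamP (k0 ^ 2 * P.trace.re) (b * Q.trace.re) (k1 ^ 2 * Q.trace.re))
        + Real.negMulLog (lamM (k0 ^ 2 * P.trace.re) (b * Q.trace.re) (k1 ^ 2 * Q.trace.re))) ≤
      St (fromBlocks (((k0 ^ 2 : ℝ) : ℂ) • P + ((b : ℝ) : ℂ) • Q) (((k0 * k1 : ℝ) : ℂ) • B)
        (((k0 * k1 : ℝ) : ℂ) • Bᴴ) (((k1 ^ 2 : ℝ) : ℂ) • Q)) := by
  have hP : P.PosSemidef := posSemidef_block₁₁ _ _ _ _ hw
  have hQ : Q.PosSemidef := posSemidef_block₂₂ _ _ _ _ hw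
  set m : ℝ := b + k1 ^ 2 with hm
  have hm0 : 0 ≤ m := by positivity
  set c : ℝ := Real.sqrt m with hc
  have hc0 : 0 ≤ c := Real.sqrt_nonneg _
  have hcc : c * c = m := Real.mul_self_sqrt hm0
  set g : ℝ := b / m with hg
  have hg0 : 0 ≤ g := div_nonneg hb hm0
  have hg1 : g ≤ 1 := div_le_one_of_le₀ (by rw [hm]; nlinarith [sq_nonneg k1]) hm0
  have hgm : g * m = b := by
    rcases hm0.eq_or_lt with h | h
    · have hb' : b = 0 := by nlinarith [sq_nonneg k1]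
      rw [← h, hb']; simp
    · rw [hg]; field_simp
  have hgm' : (1 - g) * m = k1 ^ 2 := by
    have : (1 - g) * m = m - g * m := by ring
    rw [this, hgm, hm]; ring
  have hsq : Real.sqrt (1 - g) * c = k1 := by
    rw [hc, ← Real.sqrt_mul (by linarith), hgm', Real.sqrt_sq hk1]
  -- the rescaled block matrix
  set D : Matrix (Y ⊕ Y) (Y ⊕ Y) ℂ :=
    fromBlocks (((k0 : ℝ) : ℂ) • (1 : Matrix Y Y ℂ)) 0 0 (((c : ℝ) : ℂ) • (1 : Matrix Y Y ℂ)) with hD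
  have hw' : (fromBlocks (((k0 ^ 2 : ℝ) : ℂ) • P) (((k0 * c : ℝ) : ℂ) • B)
      ((((k0 * c : ℝ) : ℂ) • B)ᴴ) (((m : ℝ) : ℂ) • Q)).PosSemidef := by
    have h := hw.mul_mul_conjTranspose_same D
    have e : D * fromBlocks P B Bᴴ Q * Dᴴ = fromBlocks (((k0 ^ 2 : ℝ) : ℂ) • P)
        (((k0 * c : ℝ) : ℂ) • B) ((((k0 * c : ℝ) : ℂ) • B)ᴴ) (((m : ℝ) : ℂ) • Q) := by
      rw [hD, fromBlocks_conjTranspose, fromBlocks_multiply, fromBlocks_multiply, ← hcc]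
      simp only [Matrix.zero_mul, Matrix.mul_zero, add_zero, zero_add, conjTranspose_zero,
        conjTranspose_one, conjTranspose_smul, Matrix.one_mul, Matrix.mul_one, Matrix.smul_mul,
        Matrix.mul_smul, smul_smul, RCLike.star_def, Complex.conj_ofReal]
      congr 1 <;> congr 1 <;> push_cast <;> ring
    rwa [e] at h
  have hL := L0u g hg0 hg1 _ _ _ hw'
  have hpsd := OmB_posSemidef g hg0 hg1 hw'
  have hΩ : OmB g (((k0 ^ 2 : ℝ) : ℂ) • P) (((k0 * c : ℝ) : ℂ) • B)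
      ((((k0 * c : ℝ) : ℂ) • B)ᴴ) (((m : ℝ) : ℂ) • Q) =
      fromBlocks (((k0 ^ 2 : ℝ) : ℂ) • P + ((b : ℝ) : ℂ) • Q) (((k0 * k1 : ℝ) : ℂ) • B)
        (((k0 * k1 : ℝ) : ℂ) • Bᴴ) (((k1 ^ 2 : ℝ) : ℂ) • Q) := by
    unfold OmB
    simp only [conjTranspose_smul, smul_smul, RCLike.star_def, Complex.conj_ofReal]
    rw [← Complex.ofReal_mul, ← Complex.ofReal_mul, ← Complex.ofReal_mul, hgm, hgm']
    have : Real.sqrt (1 - g) * (k0 * c) = k0 * k1 := by rw [← hsq]; ring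
    rw [this]
  rw [hΩ] at hL hpsd
  refine ⟨hpsd, ?_⟩
  have htP : (((k0 ^ 2 : ℝ) : ℂ) • P).trace.re = k0 ^ 2 * P.trace.re := by
    rw [trace_smul, smul_eq_mul, Complex.re_ofReal_mul]
  have htQ : (((m : ℝ) : ℂ) • Q).trace.re = m * Q.trace.re := by
    rw [trace_smul, smul_eq_mul, Complex.re_ofReal_mul]
  rw [htP, htQ] at hL
  have e1 := St_smul_sub P hP (k0 ^ 2) (by positivity)
  have e2 := St_smul_sub Q hQ m hm0
  unfold outE at hL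
  have e3 : g * (m * Q.trace.re) = b * Q.trace.re := by rw [← mul_assoc, hgm]
  have e4 : (1 - g) * (m * Q.trace.re) = k1 ^ 2 * Q.trace.re := by rw [← mul_assoc, hgm']
  rw [e3, e4] at hL
  linarith

/-- flipped form, together with positivity of the output. -/
theorem L0_flipped_aux (l0 l1 a : ℝ) (hl0 : 0 ≤ l0) (ha : 0 ≤ a) (P B Q : Matrix Y Y ℂ)
    (hw : (fromBlocks P B Bᴴ Q).PosSemidef) :
    (fromBlocks (((l0 ^ 2 : ℝ) : ℂ) • P) (((l0 * l1 : ℝ) : ℂ) • B)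
        (((l0 * l1 : ℝ) : ℂ) • Bᴴ) (((a : ℝ) : ℂ) • P + ((l1 ^ 2 : ℝ) : ℂ) • Q)).PosSemidef ∧
    (a + l0 ^ 2) * (St P - Real.negMulLog P.trace.re) + l1 ^ 2 * (St Q - Real.negMulLog Q.trace.re)
      + (Real.negMulLog (lamP (l1 ^ 2 * Q.trace.re) (a * P.trace.re) (l0 ^ 2 * P.trace.re))
        + Real.negMulLog (lamM (l1 ^ 2 * Q.trace.re) (a * P.trace.re) (l0 ^ 2 * P.trace.re))) ≤
      St (fromBlocks (((l0 ^ 2 : ℝ) : ℂ) • P) (((l0 * l1 : ℝ) : ℂ) • B)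
        (((l0 * l1 : ℝ) : ℂ) • Bᴴ) (((a : ℝ) : ℂ) • P + ((l1 ^ 2 : ℝ) : ℂ) • Q)) := by
  have hw' : (fromBlocks Q Bᴴ Bᴴᴴ P).PosSemidef := by
    have := hw.submatrix (Sum.swap : Y ⊕ Y → Y ⊕ Y)
    rw [fromBlocks_submatrix_sum_swap_sum_swap] at this
    rwa [conjTranspose_conjTranspose]
  obtain ⟨hpsd, h⟩ := L0_scaled_aux l1 l0 a hl0 ha Q Bᴴ P hw'
  rw [conjTranspose_conjTranspose] at h hpsd
  have e := St_submatrix_equiv _ hpsd (Equiv.sumComm Y Y)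
  have e' : (fromBlocks (((l1 ^ 2 : ℝ) : ℂ) • Q + ((a : ℝ) : ℂ) • P) (((l1 * l0 : ℝ) : ℂ) • Bᴴ)
      (((l1 * l0 : ℝ) : ℂ) • B) (((l0 ^ 2 : ℝ) : ℂ) • P)).submatrix (Equiv.sumComm Y Y)
      (Equiv.sumComm Y Y) = fromBlocks (((l0 ^ 2 : ℝ) : ℂ) • P) (((l0 * l1 : ℝ) : ℂ) • B)
        (((l0 * l1 : ℝ) : ℂ) • Bᴴ) (((a : ℝ) : ℂ) • P + ((l1 ^ 2 : ℝ) : ℂ) • Q) := by
    have : (⇑(Equiv.sumComm Y Y) : Y ⊕ Y → Y ⊕ Y) = Sum.swap := rfl
    rw [this, fromBlocks_submatrix_sum_swap_sum_swap, mul_comm l1 l0, add_comm]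
  have hpsd' := hpsd.submatrix (Equiv.sumComm Y Y)
  rw [e'] at e hpsd'
  refine ⟨hpsd', ?_⟩
  rw [e]
  linarith

end Vale.Agent.P358.GX
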