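import Vale.Agent.P358.GADX.Two
import Vale.Agent.P358.GADX.Scaled
import Vale.Agent.P358.GAD.StConc

/-!
The key entropy inequality from a splitting of the channel into two completely positive parts of
amplitude damping type whose scalar models are proportional.
-/

namespace Vale.Agent.P358.GX
open Matrix
open scoped ComplexOrder

variable {Y : Type*} [Fintype Y] [DecidableEq Y]

/-- entropy of a multiple of a two by two matrix in terms of the roots `lamP`, `lamM`. -/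
theorem St_lam_eq (om : Matrix (Fin 2) (Fin 2) ℂ) (hom : om.PosSemidef) (lam x y z : ℝ)
    (hlam : 0 ≤ lam) (hx : 0 ≤ x) (hy : 0 ≤ y) (hz : 0 ≤ z)
    (hs : x + y + z = lam * om.trace.re) (hd : y * z = lam ^ 2 * om.det.re) :
    Real.negMulLog (lamP x y z) + Real.negMulLog (lamM x y z) =
      lam * St om + Real.negMulLog lam * om.trace.re := by
  rw [← St_smul om hom lam hlam]
  symm
  refine St_two _ (hom.smul (by exact_mod_cast hlam)) _ _ (lamP_nonneg hx hy hz)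
    (lamM_nonneg hx hy hz) ?_ ?_
  · rw [lamP_add_lamM, hs, trace_smul, smul_eq_mul, Complex.re_ofReal_mul]
  · rw [lamP_mul_lamM hx hy hz, hd, det_smul, Fintype.card_fin, ← Complex.ofReal_pow,
      Complex.re_ofReal_mul]

theorem L0_core (al be al' be' s k0 k1 l0 l1 lam : ℝ)
    (hbe : 0 ≤ be) (hal' : 0 ≤ al') (hk1 : 0 ≤ k1) (hl0 : 0 ≤ l0)
    (hsum0 : al + al' = 1) (hsum1 : be + be' = 1)
    (h1 : k0 ^ 2 + l0 ^ 2 = al) (h2 : k1 ^ 2 + l1 ^ 2 = be') (h3 : k0 * k1 + l0 * l1 = s)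
    (hlam0 : 0 ≤ lam) (hlam1 : lam ≤ 1)
    (P B Q : Matrix Y Y ℂ) (hw : (fromBlocks P B Bᴴ Q).PosSemidef)
    (om : Matrix (Fin 2) (Fin 2) ℂ) (hom : om.PosSemidef)
    (htr : om.trace.re = P.trace.re + Q.trace.re)
    (hs1 : k0 ^ 2 * P.trace.re + be * Q.trace.re + k1 ^ 2 * Q.trace.re =
      lam * (P.trace.re + Q.trace.re))
    (hd1 : (be * Q.trace.re) * (k1 ^ 2 * Q.trace.re) = lam ^ 2 * om.det.re)
    (hd2 : (al' * P.trace.re) * (l0 ^ 2 * P.trace.re) = (1 - lam) ^ 2 * om.det.re) :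
    St P + St Q + St om - Real.negMulLog P.trace.re - Real.negMulLog Q.trace.re ≤
      St (fromBlocks (((al : ℝ) : ℂ) • P + ((be : ℝ) : ℂ) • Q) (((s : ℝ) : ℂ) • B)
        (((s : ℝ) : ℂ) • Bᴴ) (((al' : ℝ) : ℂ) • P + ((be' : ℝ) : ℂ) • Q)) := by
  have hP : P.PosSemidef := posSemidef_block₁₁ _ _ _ _ hw
  have hQ : Q.PosSemidef := posSemidef_block₂₂ _ _ _ _ hw
  have hp0 : 0 ≤ P.trace.re := (trace_eq_ofReal hP).2
  have hq0 : 0 ≤ Q.trace.re := (trace_eq_ofReal hQ).2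
  set p := P.trace.re with hp
  set q := Q.trace.re with hq
  obtain ⟨hp1, hA⟩ := L0_scaled_aux k0 k1 be hk1 hbe P B Q hw
  obtain ⟨hp2, hB⟩ := L0_flipped_aux l0 l1 al' hl0 hal' P B Q hw
  rw [← hp, ← hq] at hA hB
  have hadd : fromBlocks (((k0 ^ 2 : ℝ) : ℂ) • P + ((be : ℝ) : ℂ) • Q) (((k0 * k1 : ℝ) : ℂ) • B)
        (((k0 * k1 : ℝ) : ℂ) • Bᴴ) (((k1 ^ 2 : ℝ) : ℂ) • Q) +
      fromBlocks (((l0 ^ 2 : ℝ) : ℂ) • P) (((l0 * l1 : ℝ) : ℂ) • B)
        (((l0 * l1 : ℝ) : ℂ) • Bᴴ) (((al' : ℝ) : ℂ) • P + ((l1 ^ 2 : ℝ) : ℂ) • Q) =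
      fromBlocks (((al : ℝ) : ℂ) • P + ((be : ℝ) : ℂ) • Q) (((s : ℝ) : ℂ) • B)
        (((s : ℝ) : ℂ) • Bᴴ) (((al' : ℝ) : ℂ) • P + ((be' : ℝ) : ℂ) • Q) := by
    rw [fromBlocks_add, ← h1, ← h2, ← h3]
    congr 1
    · rw [add_right_comm, ← add_smul, ← Complex.ofReal_add]
    · rw [← add_smul, ← Complex.ofReal_add]
    · rw [← add_smul, ← Complex.ofReal_add]
    · rw [add_left_comm, ← add_smul, ← Complex.ofReal_add]
  have hC := St_add_ge _ _ hp1 hp2
  rw [hadd] at hC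
  have hs2 : l1 ^ 2 * q + al' * p + l0 ^ 2 * p = (1 - lam) * (p + q) := by
    have e1 : l1 ^ 2 = be' - k1 ^ 2 := by linarith
    have e2 : l0 ^ 2 = al - k0 ^ 2 := by linarith
    have e3 : be' = 1 - be := by linarith
    have e4 : al' = 1 - al := by linarith
    rw [e1, e2, e3, e4]
    linarith
  have ht1 : (fromBlocks (((k0 ^ 2 : ℝ) : ℂ) • P + ((be : ℝ) : ℂ) • Q) (((k0 * k1 : ℝ) : ℂ) • B)
        (((k0 * k1 : ℝ) : ℂ) • Bᴴ) (((k1 ^ 2 : ℝ) : ℂ) • Q)).trace.re = lam * (p + q) := by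
    rw [trace_fromBlocks', trace_add, trace_smul, trace_smul, trace_smul, ← hs1]
    simp only [smul_eq_mul, Complex.add_re, Complex.re_ofReal_mul, hp, hq]
  have ht2 : (fromBlocks (((l0 ^ 2 : ℝ) : ℂ) • P) (((l0 * l1 : ℝ) : ℂ) • B)
        (((l0 * l1 : ℝ) : ℂ) • Bᴴ) (((al' : ℝ) : ℂ) • P + ((l1 ^ 2 : ℝ) : ℂ) • Q)).trace.re =
      (1 - lam) * (p + q) := by
    rw [trace_fromBlocks', trace_add, trace_smul, trace_smul, trace_smul, ← hs2]
    simp only [smul_eq_mul, Complex.add_re, Complex.re_ofReal_mul, hp, hq]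
    ring
  rw [ht1, ht2] at hC
  have hE1 := St_lam_eq om hom lam (k0 ^ 2 * p) (be * q) (k1 ^ 2 * q) hlam0
    (by positivity) (by positivity) (by positivity) (by rw [htr]; exact hs1) hd1
  have hE2 := St_lam_eq om hom (1 - lam) (l1 ^ 2 * q) (al' * p) (l0 ^ 2 * p) (by linarith)
    (by positivity) (by positivity) (by positivity) (by rw [htr]; exact hs2) hd2
  rw [hE1] at hA
  rw [hE2] at hB
  rw [htr] at hA hB
  have hT : lam * (p + q) + (1 - lam) * (p + q) = p + q := by ring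
  rw [hT, Real.negMulLog_mul, Real.negMulLog_mul] at hC
  have c1 : k0 ^ 2 * (St P - Real.negMulLog p) + (al' + l0 ^ 2) * (St P - Real.negMulLog p) =
      St P - Real.negMulLog p := by
    rw [← add_mul]
    have : k0 ^ 2 + (al' + l0 ^ 2) = 1 := by linarith
    rw [this, one_mul]
  have c2 : (be + k1 ^ 2) * (St Q - Real.negMulLog q) + l1 ^ 2 * (St Q - Real.negMulLog q) =
      St Q - Real.negMulLog q := by
    rw [← add_mul]
    have : be + k1 ^ 2 + l1 ^ 2 = 1 := by linarith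
    rw [this, one_mul]
  have c3 : lam * St om + (1 - lam) * St om = St om := by ring
  have c4 : lam * Real.negMulLog (p + q) + (1 - lam) * Real.negMulLog (p + q) =
      Real.negMulLog (p + q) := by ring
  linarith

end Vale.Agent.P358.GX
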