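import Vale.Agent.P358.GADX.Core
import Vale.Agent.P358.GAD.DefsG

/-!
The key entropy inequality (lemma L0) for all parameters `(γ, ν)`.
-/

namespace Vale.Agent.P358.GX
open Matrix
open scoped ComplexOrder

variable {Y : Type*} [Fintype Y] [DecidableEq Y]

/-- determinant of the scalar model. -/
noncomputable def detG (γ ν p q : ℝ) : ℝ :=
  (1 - γ * ν) * (γ * ν) * p ^ 2 + 2 * (γ * ν) * (γ * (1 - ν)) * (p * q)
    + (γ * (1 - ν)) * (1 - γ * (1 - ν)) * q ^ 2

theorem detG_nonneg (γ ν p q : ℝ) (h0 : 0 ≤ γ) (h1 : γ ≤ 1) (hn0 : 0 ≤ ν) (hn1 : ν ≤ 1)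
    (hp : 0 ≤ p) (hq : 0 ≤ q) : 0 ≤ detG γ ν p q := by
  have a1 : 0 ≤ γ * ν := mul_nonneg h0 hn0
  have a2 : 0 ≤ γ * (1 - ν) := mul_nonneg h0 (by linarith)
  have a3 : 0 ≤ 1 - γ * ν := by nlinarith
  have a4 : 0 ≤ 1 - γ * (1 - ν) := by nlinarith
  unfold detG
  positivity

theorem omG_det (γ ν p q : ℝ) (h1 : γ ≤ 1) (hp : 0 ≤ p) (hq : 0 ≤ q) :
    (omG γ ν p q).det = ((detG γ ν p q : ℝ) : ℂ) := by
  have hS : Real.sqrt (1 - γ) * Real.sqrt (1 - γ) = 1 - γ := Real.mul_self_sqrt (by linarith)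
  have hR : Real.sqrt (p * q) * Real.sqrt (p * q) = p * q := Real.mul_self_sqrt (mul_nonneg hp hq)
  unfold omG
  rw [Matrix.det_fin_two_of, ← Complex.ofReal_mul, ← Complex.ofReal_mul, ← Complex.ofReal_sub]
  congr 1
  have e : Real.sqrt (1 - γ) * Real.sqrt (p * q) * (Real.sqrt (1 - γ) * Real.sqrt (p * q)) =
      (1 - γ) * (p * q) := by
    calc _ = (Real.sqrt (1 - γ) * Real.sqrt (1 - γ)) * (Real.sqrt (p * q) * Real.sqrt (p * q)) := by
          ring
      _ = _ := by rw [hS, hR]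
  rw [e]
  unfold detG
  ring

theorem omG_trace (γ ν p q : ℝ) : (omG γ ν p q).trace.re = p + q := by
  unfold omG
  rw [Matrix.trace_fin_two_of, ← Complex.ofReal_add, Complex.ofReal_re]
  ring

theorem omG_posSemidef (γ ν p q : ℝ) (h0 : 0 ≤ γ) (h1 : γ ≤ 1) (hn0 : 0 ≤ ν) (hn1 : ν ≤ 1)
    (hp : 0 ≤ p) (hq : 0 ≤ q) : (omG γ ν p q).PosSemidef := by
  have a1 : 0 ≤ γ * ν := mul_nonneg h0 hn0
  have a2 : 0 ≤ γ * (1 - ν) := mul_nonneg h0 (by linarith)
  have a3 : 0 ≤ 1 - γ * ν := by nlinarith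
  have a4 : 0 ≤ 1 - γ * (1 - ν) := by nlinarith
  have hS : Real.sqrt (1 - γ) * Real.sqrt (1 - γ) = 1 - γ := Real.mul_self_sqrt (by linarith)
  have hR : Real.sqrt (p * q) * Real.sqrt (p * q) = p * q := Real.mul_self_sqrt (mul_nonneg hp hq)
  unfold omG
  refine posSemidef_two (by positivity) (by positivity) ?_
  have e : Real.sqrt (1 - γ) * Real.sqrt (p * q) * (Real.sqrt (1 - γ) * Real.sqrt (p * q)) =
      (1 - γ) * (p * q) := by
    calc _ = (Real.sqrt (1 - γ) * Real.sqrt (1 - γ)) * (Real.sqrt (p * q) * Real.sqrt (p * q)) := by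
          ring
      _ = _ := by rw [hS, hR]
  rw [e]
  have hD := detG_nonneg γ ν p q h0 h1 hn0 hn1 hp hq
  unfold detG at hD
  nlinarith

/-- **Lemma L0 for all parameters** (unnormalised form). -/
theorem L0G' (γ ν : ℝ) (h0 : 0 ≤ γ) (h1 : γ ≤ 1) (hn0 : 0 ≤ ν) (hn1 : ν ≤ 1) (P B Q : Matrix Y Y ℂ)
    (hw : (fromBlocks P B Bᴴ Q).PosSemidef) :
    St P + St Q + St (omG γ ν P.trace.re Q.trace.re) - Real.negMulLog P.trace.re
      - Real.negMulLog Q.trace.re ≤ St (OmG γ ν P B Bᴴ Q) := by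
  have hP : P.PosSemidef := posSemidef_block₁₁ _ _ _ _ hw
  have hQ : Q.PosSemidef := posSemidef_block₂₂ _ _ _ _ hw
  have hp0 : 0 ≤ P.trace.re := (trace_eq_ofReal hP).2
  have hq0 : 0 ≤ Q.trace.re := (trace_eq_ofReal hQ).2
  have a1 : 0 ≤ γ * ν := mul_nonneg h0 hn0
  have a2 : 0 ≤ γ * (1 - ν) := mul_nonneg h0 (by linarith)
  have a3 : 0 ≤ 1 - γ * ν := by nlinarith
  have a4 : 0 ≤ 1 - γ * (1 - ν) := by nlinarith
  have hS : Real.sqrt (1 - γ) * Real.sqrt (1 - γ) = 1 - γ := Real.mul_self_sqrt (by linarith)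
  have hS0 : 0 ≤ Real.sqrt (1 - γ) := Real.sqrt_nonneg _
  have hom := omG_posSemidef γ ν _ _ h0 h1 hn0 hn1 hp0 hq0
  have htr := omG_trace γ ν P.trace.re Q.trace.re
  have hdet : (omG γ ν P.trace.re Q.trace.re).det.re = detG γ ν P.trace.re Q.trace.re := by
    rw [omG_det γ ν _ _ h1 hp0 hq0, Complex.ofReal_re]
  have hD0 := detG_nonneg γ ν _ _ h0 h1 hn0 hn1 hp0 hq0
  unfold OmG
  generalize hSdef : Real.sqrt (1 - γ) = S at *
  generalize hpdef : P.trace.re = p at *
  generalize hqdef : Q.trace.re = q at *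
  by_cases hz : γ * ν = 0
  · -- amplitude damping
    have := L0_core (1 - γ * ν) (γ * (1 - ν)) (γ * ν) (1 - γ * (1 - ν)) S 1 S 0 0 1 a2 a1 hS0 le_rfl
      (by ring) (by ring) (by linear_combination hz) (by linear_combination hS - hz) (by ring)
      zero_le_one le_rfl P B Q hw (omG γ ν p q) hom (by rw [htr, hpdef, hqdef])
      (by simp only [hpdef, hqdef]; linear_combination q * hS - q * hz)
      (by
        simp only [hqdef, hdet]; unfold detG
        linear_combination (γ - γ * ν) * q ^ 2 * hS -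
          ((γ - γ * ν) * q ^ 2 + (1 - γ * ν) * p ^ 2 + 2 * (γ - γ * ν) * p * q) * hz)
      (by ring)
    rw [hpdef, hqdef] at this
    exact this
  by_cases hb : γ * (1 - ν) = 0
  · -- flipped amplitude damping
    have := L0_core (1 - γ * ν) (γ * (1 - ν)) (γ * ν) (1 - γ * (1 - ν)) S 0 0 S 1 0 a2 a1 le_rfl hS0
      (by ring) (by ring) (by linear_combination hS - hb) (by linear_combination hb) (by ring)
      le_rfl zero_le_one P B Q hw (omG γ ν p q) hom (by rw [htr, hpdef, hqdef])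
      (by simp only [hpdef, hqdef]; linear_combination q * hb)
      (by ring)
      (by
        simp only [hpdef, hdet]; unfold detG
        linear_combination (γ * ν) * p ^ 2 * hS -
          ((γ * ν) * p ^ 2 + 2 * (γ * ν) * p * q + (1 - γ * (1 - ν)) * q ^ 2) * hb)
    rw [hpdef, hqdef] at this
    exact this
  have a1' : 0 < γ * ν := lt_of_le_of_ne a1 (Ne.symm hz)
  have a2' : 0 < γ * (1 - ν) := lt_of_le_of_ne a2 (Ne.symm hb)
  have a3' : 0 < 1 - γ * ν := by nlinarith
  have a4' : 0 < 1 - γ * (1 - ν) := by nlinarith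
  rcases hD0.eq_or_lt with hD | hD
  · -- everything vanishes
    have hp' : p = 0 := by
      unfold detG at hD
      by_contra hne
      have hpp : 0 < p := lt_of_le_of_ne hp0 (Ne.symm hne)
      have : 0 < (1 - γ * ν) * (γ * ν) * p ^ 2 := by positivity
      have t2 : 0 ≤ 2 * (γ * ν) * (γ * (1 - ν)) * (p * q) := by positivity
      have t3 : 0 ≤ (γ * (1 - ν)) * (1 - γ * (1 - ν)) * q ^ 2 := by positivity
      linarith
    have hq' : q = 0 := by
      unfold detG at hD
      by_contra hne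
      have hqq : 0 < q := lt_of_le_of_ne hq0 (Ne.symm hne)
      have : 0 < (γ * (1 - ν)) * (1 - γ * (1 - ν)) * q ^ 2 := by positivity
      have t2 : 0 ≤ 2 * (γ * ν) * (γ * (1 - ν)) * (p * q) := by positivity
      have t3 : 0 ≤ (1 - γ * ν) * (γ * ν) * p ^ 2 := by positivity
      linarith
    have hw0 : fromBlocks P B Bᴴ Q = 0 := by
      apply eq_zero_of_trace_re_eq_zero hw
      rw [trace_fromBlocks', Complex.add_re, hpdef, hqdef, hp', hq', add_zero]
    have hP0 : P = 0 := by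
      ext i j
      have := congrFun (congrFun hw0 (Sum.inl i)) (Sum.inl j)
      simpa using this
    have hB0 : B = 0 := by
      ext i j
      have := congrFun (congrFun hw0 (Sum.inl i)) (Sum.inr j)
      simpa using this
    have hQ0 : Q = 0 := by
      ext i j
      have := congrFun (congrFun hw0 (Sum.inr i)) (Sum.inr j)
      simpa using this
    have hom0 : omG γ ν 0 0 = 0 := by
      unfold omG
      ext i j
      fin_cases i <;> fin_cases j <;> simp
    rw [hp', hq', hP0, hB0, hQ0, hom0]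
    simp [St_zero]
  · -- the main case
    set D := detG γ ν p q with hDdef
    have hDne : D ≠ 0 := hD.ne'
    have hDe : D = (1 - γ * ν) * (γ * ν) * p ^ 2 + 2 * (γ * ν) * (γ * (1 - ν)) * (p * q)
      + (γ * (1 - ν)) * (1 - γ * (1 - ν)) * q ^ 2 := by rw [hDdef]; rfl
    set t0 : ℝ := (1 - γ * ν) * p + γ * (1 - ν) * q with ht0
    set t1 : ℝ := γ * ν * p + (1 - γ * (1 - ν)) * q with ht1
    have ht0n : 0 ≤ t0 := by positivity
    have ht1n : 0 ≤ t1 := by positivity
    set r : ℝ := Real.sqrt (γ * (1 - ν) / D) with hr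
    set r' : ℝ := Real.sqrt (γ * ν / D) with hr'
    have hr0 : 0 ≤ r := Real.sqrt_nonneg _
    have hr'0 : 0 ≤ r' := Real.sqrt_nonneg _
    have hrr : r ^ 2 = γ * (1 - ν) / D := Real.sq_sqrt (by positivity)
    have hrr' : r' ^ 2 = γ * ν / D := Real.sq_sqrt (by positivity)
    have hsplit : γ * (1 - ν) * q * t1 + γ * ν * p * t0 = D := by
      rw [hDe, ht0, ht1]; ring
    have hlam1 : 1 - γ * (1 - ν) * q * t1 / D = γ * ν * p * t0 / D := by
      rw [eq_div_iff hDne, sub_mul, div_mul_cancel₀ _ hDne]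
      linarith
    have := L0_core (1 - γ * ν) (γ * (1 - ν)) (γ * ν) (1 - γ * (1 - ν)) S
      (r * S * q) (r * t1) (r' * t0) (r' * S * p) (γ * (1 - ν) * q * t1 / D) a2 a1
      (by positivity) (by positivity)
      (by ring) (by ring)
      (by
        have e : (r * S * q) ^ 2 + (r' * t0) ^ 2 = r ^ 2 * (S * S) * q ^ 2 + r' ^ 2 * t0 ^ 2 := by
          ring
        rw [e, hrr, hrr', hS]
        have e2 : γ * (1 - ν) / D * (1 - γ) * q ^ 2 + γ * ν / D * t0 ^ 2 =
            (γ * (1 - ν) * (1 - γ) * q ^ 2 + γ * ν * t0 ^ 2) / D := by ring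
        rw [e2, div_eq_iff hDne, hDe, ht0]
        ring)
      (by
        have e : (r * t1) ^ 2 + (r' * S * p) ^ 2 = r ^ 2 * t1 ^ 2 + r' ^ 2 * (S * S) * p ^ 2 := by
          ring
        rw [e, hrr, hrr', hS]
        have e2 : γ * (1 - ν) / D * t1 ^ 2 + γ * ν / D * (1 - γ) * p ^ 2 =
            (γ * (1 - ν) * t1 ^ 2 + γ * ν * (1 - γ) * p ^ 2) / D := by ring
        rw [e2, div_eq_iff hDne, hDe, ht1]
        ring)
      (by
        have e : r * S * q * (r * t1) + r' * t0 * (r' * S * p) =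
            S * (r ^ 2 * (q * t1) + r' ^ 2 * (p * t0)) := by ring
        rw [e, hrr, hrr']
        have e2 : γ * (1 - ν) / D * (q * t1) + γ * ν / D * (p * t0) =
            (γ * (1 - ν) * q * t1 + γ * ν * p * t0) / D := by ring
        rw [e2, hsplit, div_self hDne, mul_one])
      (by positivity)
      (by
        rw [div_le_one hD, ← hsplit]
        have : 0 ≤ γ * ν * p * t0 := by positivity
        linarith)
      P B Q hw (omG γ ν p q) hom (by rw [htr, hpdef, hqdef])
      (by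
        simp only [hpdef, hqdef]
        have e : (r * S * q) ^ 2 * p + γ * (1 - ν) * q + (r * t1) ^ 2 * q =
            r ^ 2 * ((S * S) * q ^ 2 * p + t1 ^ 2 * q) + γ * (1 - ν) * q := by ring
        rw [e, hrr, hS]
        have e2 : γ * (1 - ν) / D * ((1 - γ) * q ^ 2 * p + t1 ^ 2 * q) + γ * (1 - ν) * q =
            (γ * (1 - ν) * ((1 - γ) * q ^ 2 * p + t1 ^ 2 * q) + γ * (1 - ν) * q * D) / D := by
          field_simp
        rw [e2, div_mul_eq_mul_div, div_left_inj' hDne, hDe, ht1]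
        ring)
      (by
        simp only [hqdef, hdet]
        have e : γ * (1 - ν) * q * ((r * t1) ^ 2 * q) = r ^ 2 * (γ * (1 - ν) * q ^ 2 * t1 ^ 2) := by
          ring
        rw [e, hrr]
        field_simp)
      (by
        simp only [hpdef, hdet]
        rw [hlam1]
        have e : γ * ν * p * ((r' * t0) ^ 2 * p) = r' ^ 2 * (γ * ν * p ^ 2 * t0 ^ 2) := by
          ring
        rw [e, hrr']
        field_simp)
    rw [hpdef, hqdef] at this
    exact this

end Vale.Agent.P358.GX
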