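import Vale.Agent.P358.AD.StTool

/-!
Two by two matrices: positivity criterion and entropy from trace and determinant.
-/

namespace Vale.Agent.P358.GX
open Matrix
open scoped ComplexOrder

theorem quad_nonneg {a c d : ℝ} (ha : 0 ≤ a) (hd : 0 ≤ d) (hdet : c * c ≤ a * d) (u w : ℝ) :
    0 ≤ a * (u * u) + 2 * c * (u * w) + d * (w * w) := by
  rcases ha.eq_or_lt with rfl | ha'
  · have hc : c = 0 := by nlinarith
    subst hc
    nlinarith [mul_self_nonneg w]
  · have h : 0 ≤ a * (a * (u * u) + 2 * c * (u * w) + d * (w * w)) := by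
      have e : a * (a * (u * u) + 2 * c * (u * w) + d * (w * w)) =
          (a * u + c * w) ^ 2 + (a * d - c * c) * (w * w) := by ring
      rw [e]
      have := mul_nonneg (sub_nonneg.2 hdet) (mul_self_nonneg w)
      positivity
    exact nonneg_of_mul_nonneg_right h ha'

/-- a real symmetric two by two matrix with nonnegative diagonal and determinant is positive
semidefinite. -/
theorem posSemidef_two {a c d : ℝ} (ha : 0 ≤ a) (hd : 0 ≤ d) (hdet : c * c ≤ a * d) :
    (!![(a : ℂ), (c : ℂ); (c : ℂ), (d : ℂ)] : Matrix (Fin 2) (Fin 2) ℂ).PosSemidef := by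
  refine Matrix.PosSemidef.of_dotProduct_mulVec_nonneg ?_ ?_
  · ext i j
    fin_cases i <;> fin_cases j <;> simp [Matrix.conjTranspose_apply]
  · intro x
    have h1 := quad_nonneg ha hd hdet (x 0).re (x 1).re
    have h2 := quad_nonneg ha hd hdet (x 0).im (x 1).im
    rw [Complex.le_def]
    constructor
    · simp [dotProduct, Matrix.mulVec, Fin.sum_univ_two]
      nlinarith
    · simp [dotProduct, Matrix.mulVec, Fin.sum_univ_two]
      ring

theorem St_two (A : Matrix (Fin 2) (Fin 2) ℂ) (hA : A.PosSemidef) (u v : ℝ) (hu : 0 ≤ u)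
    (hv : 0 ≤ v) (htr : A.trace.re = u + v) (hdet : A.det.re = u * v) :
    St A = Real.negMulLog u + Real.negMulLog v := by
  have h := St_eq_sum_of_det A hA (![u, v] : Fin 2 → ℝ)
    (by intro j; fin_cases j <;> simpa) (by simp)
    (by simpa [Fin.sum_univ_two] using htr)
    (by
      intro s hs
      have e : ((s : ℂ) • (1 : Matrix (Fin 2) (Fin 2) ℂ) + A).det =
          ((s ^ 2 : ℝ) : ℂ) + (s : ℂ) * A.trace + A.det := by
        rw [Matrix.det_fin_two, Matrix.det_fin_two, Matrix.trace_fin_two]
        simp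
        ring
      rw [e]
      simp only [Complex.add_re, Complex.ofReal_re, Complex.re_ofReal_mul, htr, hdet,
        Fin.prod_univ_two, Matrix.cons_val_zero, Matrix.cons_val_one]
      ring)
  simpa [Fin.sum_univ_two] using h

end Vale.Agent.P358.GX
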